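import Vale.Agent.P045g.Sound
import Vale.Agent.P045g.C61.Db

namespace Vale.Agent.P045g.C61

open Vale.Agent.P045b Vale.Agent.P045g

theorem parWF : par.WF := by
  refine ⟨by decide, rfl, ?_, by decide, by decide, by decide⟩
  intro p
  have h : par.all = 2 ^ 96 - 1 := by norm_num [par]
  rw [h, Nat.testBit_two_pow_sub_one]
  rfl

theorem r2 : 2 ≤ par.r := by decide

end Vale.Agent.P045g.C61
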